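import Vale.Agent.P244.Kit.SmJ

/-!
P244 block D: the quantities at time `t` only depend on `A t`, `β t` on `[0, 1]`.
-/

namespace Vale.Agent.P244

open scoped ContDiff Topology
open Set Filter Real

theorem XX_iter_congr {u v : Fn} {t : ℝ} (e : EqOn (u t) (v t) (Icc 0 1)) (i : ℕ) :
    EqOn (XX^[i] u t) (XX^[i] v t) (Icc 0 1) := by
  induction i with
  | zero => exact e
  | succ i ih =>
    rw [Function.iterate_succ_apply', Function.iterate_succ_apply']
    exact XX_congr_on ro_Icc ih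

theorem dX_iter_congr {u v : Fn} {t : ℝ} (e : EqOn (u t) (v t) (Icc 0 1)) (i : ℕ) :
    EqOn (dX^[i] u t) (dX^[i] v t) (Icc 0 1) := by
  induction i with
  | zero => exact e
  | succ i ih =>
    rw [Function.iterate_succ_apply', Function.iterate_succ_apply']
    exact dX_congr_on ro_Icc ih

section

variable {S S' : St} {t : ℝ} (hτ : S.τ₀ = S'.τ₀) (hA : EqOn (S.A t) (S'.A t) (Icc 0 1))
  (hβ : EqOn (S.β t) (S'.β t) (Icc 0 1))
include hβ

theorem cong_HH : EqOn (S.HH t) (S'.HH t) (Icc 0 1) := fun y hy => by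
  simp only [St.HH, hβ hy]

include hA

theorem cong_KK : EqOn (S.KK t) (S'.KK t) (Icc 0 1) := fun y hy => by
  simp only [St.KK, hA hy, hβ hy]

theorem cong_rho : EqOn (S.rho t) (S'.rho t) (Icc 0 1) := fun y hy => by
  simp only [St.rho, cong_KK hA hβ hy]

theorem cong_kk : EqOn (S.kk t) (S'.kk t) (Icc 0 1) := fun y hy => by
  simp only [St.kk, St.aa, St.bb, dX_congr_on ro_Icc hA hy, dX_congr_on ro_Icc hβ hy]

theorem cong_nn : EqOn (S.nn t) (S'.nn t) (Icc 0 1) := fun y hy => by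
  simp only [St.nn, St.bb, dX_congr_on ro_Icc hβ hy, cong_HH hβ hy, cong_kk hA hβ hy,
    cong_KK hA hβ hy]

theorem cong_u2 : EqOn (S.u2 t) (S'.u2 t) (Icc 0 1) := fun y hy => by
  simp only [St.u2, hA hy, hβ hy, dY_congr hA hy, dY_congr hβ hy]

theorem cong_Dr {u v : Fn} (e : EqOn (u t) (v t) (Icc 0 1)) :
    EqOn (S.Dr u t) (S'.Dr v t) (Icc 0 1) := fun y hy => by
  simp only [St.Dr, dX_congr_on ro_Icc e hy, cong_kk hA hβ hy, cong_rho hA hβ hy]

include hτ

theorem cong_u1 : EqOn (S.u1 t) (S'.u1 t) (Icc 0 1) := fun y hy => by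
  simp only [St.u1, St.sg, hτ, hA hy, hβ hy, dY_congr hβ hy, cong_HH hβ hy, cong_kk hA hβ hy]

theorem cong_Z1 : EqOn (S.Z1 t) (S'.Z1 t) (Icc 0 1) := fun y hy => by
  simp only [St.Z1, hτ, cong_nn hA hβ hy, cong_kk hA hβ hy, cong_rho hA hβ hy]

theorem cong_Z3 : EqOn (S.Z3 t) (S'.Z3 t) (Icc 0 1) :=
  cong_Dr hA hβ (cong_Dr hA hβ (cong_Z1 hτ hA hβ))

end

end Vale.Agent.P244
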