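import Vale.Agent.P244.D.Base

/-!
P244 block D: the quantities of `Q.lean` for the initial data.
-/

namespace Vale.Agent.P244

open scoped ContDiff Topology
open Set Filter Real

theorem S0_sum (δ τ : ℝ) (c : Fin 3 → ℝ) (t y : ℝ) :
    2 * (S0 δ τ c).A t y + (S0 δ τ c).β t y = 0 := by
  simp only [S0]
  ring

theorem S0_KK (δ τ : ℝ) (c : Fin 3 → ℝ) (t y : ℝ) : (S0 δ τ c).KK t y = y * (1 - y) := by
  rw [St.KK, S0_sum, exp_zero, mul_one]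

theorem S0_rho (δ τ : ℝ) (c : Fin 3 → ℝ) (t y : ℝ) : (S0 δ τ c).rho t y = rho0 y := by
  rw [St.rho, S0_KK, rho0]

namespace Par

variable (p : Par) {y : ℝ}

theorem S_τ : p.S.τ₀ = p.τ := rfl
theorem S_β (y : ℝ) : p.S.β 0 y = 1 / 3 * log (p.H y) := rfl
theorem S_A (y : ℝ) : p.S.A 0 y = -(1 / 6) * log (p.H y) := rfl
theorem S_hh (y : ℝ) : p.S.hh 0 y = p.h y := rfl
theorem S_KK (y : ℝ) : p.S.KK 0 y = y * (1 - y) := S0_KK _ _ _ _ _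
theorem S_rho (y : ℝ) : p.S.rho 0 y = rho0 y := S0_rho _ _ _ _ _

theorem S_HH (hy : y ∈ Icc (0 : ℝ) 1) : p.S.HH 0 y = p.H y := by
  rw [St.HH_eq, S_hh, p.h_cube hy]

theorem S_sg (y : ℝ) : p.S.sg 0 y = p.σ y := by
  rw [St.sg_eq, S_hh, S_τ, sub_zero, σ]

theorem S_EE (hy : y ∈ Icc (0 : ℝ) 1) : p.S.EE 0 y = p.H y - y * (1 - y) := by
  rw [St.EE, p.S_HH hy, S_KK]

theorem S_th (hy : y ∈ Icc (0 : ℝ) 1) : p.S.th 0 y = y * (1 - y) / p.H y := by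
  rw [eq_div_iff (p.H_pos hy).ne', ← p.S_KK, St.KK_eq, S_hh, p.h_cube hy]

theorem β_deriv (hy : y ∈ Icc (0 : ℝ) 1) :
    HasDerivAt (p.S.β 0) (1 / 3 * ((1 - 2 * y + p.G y) / p.H y)) y :=
  ((p.H_deriv y).log (p.H_pos hy).ne').const_mul _

theorem A_deriv (hy : y ∈ Icc (0 : ℝ) 1) :
    HasDerivAt (p.S.A 0) (-(1 / 6) * ((1 - 2 * y + p.G y) / p.H y)) y :=
  ((p.H_deriv y).log (p.H_pos hy).ne').const_mul _

theorem S_dβ (hy : y ∈ Icc (0 : ℝ) 1) : dY p.S.β 0 y = 1 / 3 * ((1 - 2 * y + p.G y) / p.H y) :=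
  dY_eq hy (p.β_deriv hy).hasDerivWithinAt

theorem S_dA (hy : y ∈ Icc (0 : ℝ) 1) : dY p.S.A 0 y = -(1 / 6) * ((1 - 2 * y + p.G y) / p.H y) :=
  dY_eq hy (p.A_deriv hy).hasDerivWithinAt

theorem S_kk (hy : y ∈ Icc (0 : ℝ) 1) : p.S.kk 0 y = 2 * (1 - 2 * y) := by
  simp only [St.kk, St.aa, St.bb, dX, p.S_dβ hy, p.S_dA hy]
  ring

theorem S_e2A (y : ℝ) : exp (-2 * p.S.A 0 y) = p.h y := by
  rw [S_A, h]
  congr 1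
  ring

theorem S_u1 (hy : y ∈ Icc (0 : ℝ) 1) : p.S.u1 0 y = 2 * (p.h y * p.G y * (p.σ y ^ 2)⁻¹) := by
  have := (p.H_pos hy).ne'
  have e : exp (2 * p.S.A 0 y + p.S.β 0 y) = 1 := by rw [S, S0_sum, exp_zero]
  rw [St.u1, S_e2A, p.S_dβ hy, p.S_HH hy, p.S_kk hy, e, S_sg]
  field_simp
  ring

theorem S_u2 (hy : y ∈ Icc (0 : ℝ) 1) :
    p.S.u2 0 y = (p.G y - 2 * y) * (p.h y ^ 2)⁻¹ - 6 * (p.h y * (1 - y)⁻¹) := by
  have := (p.h_pos y).ne'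
  have e : exp (-2 * p.S.β 0 y) = (p.h y ^ 2)⁻¹ := St.id0_neg _
  rw [St.u2, S_e2A, p.S_dβ hy, p.S_dA hy, e, ← p.h_cube hy, div_eq_mul_inv 6]
  field_simp
  ring

theorem S_nn (hy : y ∈ Icc (0 : ℝ) 1) : p.S.nn 0 y = 2 * (y * (1 - y)) * p.G y := by
  have := (p.H_pos hy).ne'
  simp only [St.nn, St.bb, dX, p.S_dβ hy, p.S_HH hy, p.S_kk hy, S_KK]
  field_simp
  ring

theorem S_Z0 (hy : y ∈ Icc (0 : ℝ) 1) : p.S.Z0 0 y = p.q0 (rho0 y) + p.R y := by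
  rw [St.Z0, p.S_EE hy, S_rho, S_τ, sub_zero, H_eq, R]
  ring

theorem S_Z1 (hy : y ∈ Icc (0 : ℝ) 1) : p.S.Z1 0 y =
    3 * (2 * (y * (1 - y)) * p.G y) / (2 * (2 * (1 - 2 * y)) * rho0 y) - PP1 p.τ (rho0 y) := by
  rw [St.Z1, p.S_nn hy, p.S_kk hy, S_rho, S_τ, sub_zero]

end Par

end Vale.Agent.P244
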