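import Vale.Agent.P244.D.SA
import Vale.Agent.P244.D.Form

/-!
P244 block D: smoothness, `C^m` bounds and continuity in `c` for fixed `δ`, `τ₀`.
-/

namespace Vale.Agent.P244

open scoped ContDiff Topology
open Set Filter Real Ctx

noncomputable section

/-- Replace the parameter `c`. -/
def Par.wc (p : Par) (c : {c : Fin 3 → ℝ // ∀ j, |c j| ≤ 1}) : Par :=
  { p with c := c.1, cube := c.2 }

theorem Par.smooth (p : Par) :
    ContDiffOn ℝ ∞ (p.S.A 0) (Icc 0 1) ∧ ContDiffOn ℝ ∞ (p.S.β 0) (Icc 0 1) :=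
  ⟨contDiffOn_const.mul (p.H_smooth.contDiffOn.log fun _ hy => (p.H_pos hy).ne'),
    contDiffOn_const.mul (p.H_smooth.contDiffOn.log fun _ hy => (p.H_pos hy).ne')⟩

/-- The context of the plain derivative. -/
def cY : Ctx {c : Fin 3 → ℝ // ∀ j, |c j| ≤ 1} where
  cf _ := 1
  J _ := Icc 0 1
  Ω _ := Icc 0 1
  N _ _ := 1
  sm := contDiff_const
  ro _ := ro_Icc
  sub _ := subset_rfl
  one _ _ _ := le_rfl

theorem dY_iter_eq_dl (u : Fn) (t : ℝ) (k : ℕ) : dY^[k] u t = (dl fun _ => 1)^[k] (u t) := by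
  induction k with
  | zero => rfl
  | succ k ih =>
    rw [Function.iterate_succ_apply', Function.iterate_succ_apply', ← ih]
    funext y
    exact (one_mul _).symm

theorem Par.sa_log (p : Par) : cY.SA (fun _ _ => 1) fun c y => log ((p.wc c).H y) := by
  have f := p.φ_smooth
  have h1 : cY.SA (fun _ _ => 1) fun c y => (p.wc c).H y := by
    refine ((((sa_poly (φ := fun y => y * (1 - y) + y ^ 4 + PP p.τ (p.φ y))
      (by unfold PP; fun_prop)).add
      ((sa_poly (φ := fun _ => p.δ * (2 * p.τ ^ 3)) contDiff_const).cst _ fun c => c.2 0)).add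
      ((sa_poly (φ := fun y => p.δ * (p.τ ^ 2 * p.φ y)) (by fun_prop)).cst _ fun c => c.2 1)).add
      ((sa_poly (φ := fun y => p.δ * (p.τ / 10 * p.φ y ^ 2)) (by fun_prop)).cst _
        fun c => c.2 2)).congr fun c y _ => ?_
    simp only [Par.H, H0, Par.wc, Par.φ]
    ring
  have t3 := pow_pos p.τ0 3
  have lo : ∀ c, ∀ y ∈ Icc (0 : ℝ) 1, p.τ ^ 3 / 2 ≤ (p.wc c).H y := fun c y hy => by
    have := (p.wc c).H_lo hy
    have e : (p.wc c).τ = p.τ := rfl
    rw [e] at this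
    linarith [hy.1]
  have h2 := h1.inv (fun c y hy => ((p.wc c).H_pos hy).ne')
    (bd_le (2 / p.τ ^ 3) (by positivity) fun c y hy => ⟨zero_le_one, by
      rw [div_mul_eq_mul_div, le_div_iff₀ t3]
      linarith [lo c y hy]⟩) fun _ _ _ => one_ne_zero
  refine sa_succ (fun c y hy => (p.wc c).H_smooth.contDiffAt.contDiffWithinAt.log
    ((p.wc c).H_pos hy).ne') ⟨|log (p.τ ^ 3 / 2)| + |log 2|, by positivity, fun c y hy => ?_⟩
    (((h1.D.mul h2).mono (bd_eq fun _ _ _ => by simp)).congr fun c y hy => ?_)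
  · have a1 := log_le_log (by positivity) (lo c y hy)
    have t1 : (p.wc c).τ ^ 3 ≤ 1 / 8 :=
      (pow_le_pow_left₀ p.τ0.le p.τ1 3).trans (by norm_num)
    have a2 := log_le_log ((p.wc c).H_pos hy)
      (show (p.wc c).H y ≤ 2 by linarith [(p.wc c).H_hi hy, hy.2])
    rw [abs_one, mul_one, abs_le]
    constructor
    · linarith [neg_abs_le (log (p.τ ^ 3 / 2)), abs_nonneg (log 2)]
    · linarith [le_abs_self (log 2), abs_nonneg (log (p.τ ^ 3 / 2))]
  · simp only [D_eq (g := fun c y => log ((p.wc c).H y)) hy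
      (((p.wc c).H_deriv y).log ((p.wc c).H_pos hy).ne'),
      D_eq (g := fun c y => (p.wc c).H y) hy ((p.wc c).H_deriv y)]
    ring

theorem Par.cm (p : Par) (m : ℕ) :
    ∃ N, ∀ c, Cm m (p.wc c).S.A 0 N ∧ Cm m (p.wc c).S.β 0 N := by
  obtain ⟨M1, h1⟩ := (p.sa_log.cmul (-(1 / 6))).unif m
  obtain ⟨M2, h2⟩ := (p.sa_log.cmul (1 / 3)).unif m
  refine ⟨max M1 M2, fun c => ⟨fun i hi y hy => ?_, fun i hi y hy => ?_⟩⟩
  · have a := h1 i hi c y hy
    rw [Ctx.D_iter] at a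
    rw [dY_iter_eq_dl]
    exact a.trans (le_max_left _ _)
  · have a := h2 i hi c y hy
    rw [Ctx.D_iter] at a
    rw [dY_iter_eq_dl]
    exact a.trans (le_max_right _ _)

theorem Par.cont (p : Par) {y : ℝ} (hy : y ∈ Icc (0 : ℝ) 1) :
    ContinuousOn (fun c => (S0 p.δ p.τ c).β 0 y) {c : Fin 3 → ℝ | ∀ j, |c j| ≤ 1} := by
  have h1 : Continuous fun c : Fin 3 → ℝ => H0 p.δ p.τ c y := by
    unfold H0
    fun_prop
  exact continuousOn_const.mul (h1.continuousOn.log fun c hc => ((p.wc ⟨c, hc⟩).H_pos hy).ne')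

end

end Vale.Agent.P244
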