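import Vale.Agent.P244.D.Sym

/-!
P244 block D: the Euler derivatives of `A`, `β` and the derivatives of `u₁`, `u₂`.
-/

namespace Vale.Agent.P244

open scoped ContDiff Topology
open Set Filter Real Ctx

noncomputable section

/-- The context of the Euler derivative. -/
def cX : Ctx Par where
  cf y := y
  J _ := Icc 0 1
  Ω _ := Icc 0 1
  N _ _ := 1
  sm := contDiff_id
  ro _ := ro_Icc
  sub _ := subset_rfl
  one _ _ _ := le_rfl

theorem cX_nice : Nice cX := ⟨fun _ => 1, contDiff_const, fun y => (one_mul y).symm⟩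

theorem x_est (n : ℕ) : ∃ M, ∀ p : Par, ∀ i, 1 ≤ i → i ≤ n → ∀ y ∈ Icc (0 : ℝ) 1,
    |XX^[i] p.S.A 0 y| ≤ M ∧ |XX^[i] p.S.β 0 y| ≤ M := by
  obtain ⟨M1, h1⟩ := cX_nice.sa_DA.unif n
  obtain ⟨M2, h2⟩ := cX_nice.sa_Dβ.unif n
  refine ⟨max M1 M2, fun p i i1 i2 y hy => ?_⟩
  obtain ⟨k, rfl⟩ := Nat.exists_eq_add_of_le' i1
  have a1 := h1 k (by omega) p y hy
  have a2 := h2 k (by omega) p y hy
  rw [← Function.iterate_succ_apply, Ctx.D_iter] at a1 a2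
  rw [XX_iter_eq_dl, XX_iter_eq_dl]
  exact ⟨a1.trans (le_max_left _ _), a2.trans (le_max_right _ _)⟩

/-- The inner context. -/
def cU : Ctx Par where
  cf y := 2 * (y * (1 - y))
  J _ := Ico 0 1
  Ω _ := Icc 0 (1 / 4)
  N _ _ := 1
  sm := by fun_prop
  ro _ := ro_Ico
  sub _ := Icc_subset_Ico_right (by norm_num)
  one _ _ _ := le_rfl

theorem cU_nice : Nice cU := ⟨fun y => 2 * (1 - y), by fun_prop, fun y => by simp only [cU]; ring⟩

theorem sa_u1 : cU.SA (fun _ _ => 1) fun p => p.S.u1 0 := by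
  have hc := cU_nice
  have h1 := (hc.sa_h.mul hc.sa_G).mul (hc.sa_σ.sq.inv' fun p y _ => (pow_pos (p.σ_pos y) 2).ne')
  refine ((h1.mono (bd_le 4 (by norm_num) fun p y hy => ⟨?_, ?_⟩)).cmul 2).congr
    fun p y hy => p.S_u1 (memJ hy)
  · have := p.h_pos y
    have := p.wG_nonneg (memΩ hy)
    positivity
  · rw [← div_eq_mul_inv, div_le_iff₀ (pow_pos (p.σ_pos y) 2), mul_one]
    exact p.hwG_le (memΩ hy)

theorem sa_u2 : cU.SA (fun _ _ => 1) fun p => p.S.u2 0 := by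
  have hc := cU_nice
  have h1 := (hc.sa_G.sub (hc.sa_yG.cmul 2)).mul
    (hc.sa_h.sq.inv' fun p y _ => (pow_pos (p.h_pos y) 2).ne')
  have h2 : cU.SA (fun _ _ => (1 : ℝ)⁻¹) fun _ y => (1 - y)⁻¹ :=
    (sa_poly (φ := fun y => 1 - y) (by fun_prop)).inv (fun _ y hy => (sub_pos.2 hy.2).ne')
      (bd_le 2 zero_le_two fun _ y hy => ⟨zero_le_one, by linarith [hy.2]⟩)
      fun _ _ _ => one_ne_zero
  refine ((h1.mono (bd_le 4 (by norm_num) fun p y hy => ⟨?_, ?_⟩)).sub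
    (((hc.sa_h.mul h2).mono (bd_le 2 zero_le_two fun p y hy => ?_)).cmul 6)).congr
    fun p y hy => p.S_u2 (memJ hy)
  · have := p.wG_nonneg (memΩ hy)
    positivity
  · rw [← div_eq_mul_inv, div_le_iff₀ (pow_pos (p.h_pos y) 2), mul_one]
    exact p.wG_le (memΩ hy)
  · rw [inv_one, mul_one, mul_one]
    exact ⟨(p.h_pos y).le, p.h_le (memΩ hy)⟩

theorem u_est (n : ℕ) : ∃ M, ∀ p : Par, ∀ i ≤ n, ∀ y ∈ Icc (0 : ℝ) (1 / 4),
    |dX^[i] p.S.u1 0 y| ≤ M ∧ |dX^[i] p.S.u2 0 y| ≤ M := by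
  obtain ⟨M1, h1⟩ := sa_u1.unif n
  obtain ⟨M2, h2⟩ := sa_u2.unif n
  refine ⟨max M1 M2, fun p i hi y hy => ?_⟩
  have a1 := h1 i hi p y hy
  have a2 := h2 i hi p y hy
  rw [Ctx.D_iter] at a1 a2
  rw [dX_iter_eq_dl, dX_iter_eq_dl]
  exact ⟨a1.trans (le_max_left _ _), a2.trans (le_max_right _ _)⟩

end

end Vale.Agent.P244
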