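import Vale.Agent.P244.D.Sym

/-!
P244 block D: the cone coordinates `Z₀`, `Z₁`, `Z₃` of the initial data.
-/

namespace Vale.Agent.P244

open scoped ContDiff Topology
open Set Filter Real Ctx

noncomputable section

theorem ro_half : RO (Ioo 0 (1 / 2)) := fun _ hy =>
  ⟨⟨hy.1.le, by linarith [hy.2]⟩, mem_nhdsWithin_of_mem_nhds (Ioo_mem_nhds hy.1 hy.2)⟩

/-- The cone context. -/
def cZ : Ctx Par where
  cf y := 2 * (y * (1 - y))
  J _ := Ioo 0 (1 / 2)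
  Ω p := Icc (p.τ ^ 2) (1 / 4)
  N _ _ := 1
  sm := by fun_prop
  ro _ := ro_half
  sub p _ hy := ⟨(pow_pos p.τ0 2).trans_le hy.1, by linarith [hy.2]⟩
  one _ _ _ := le_rfl

theorem cZ_nice : Nice cZ := ⟨fun y => 2 * (1 - y), by fun_prop, fun y => by simp only [cZ]; ring⟩

theorem cZ_J {p : Par} {y : ℝ} (hy : y ∈ cZ.J p) : y ∈ Ioo (0 : ℝ) 1 :=
  ⟨hy.1, by linarith [hy.2]⟩

theorem cZ_Ω {p : Par} {y : ℝ} (hy : y ∈ cZ.Ω p) : y ∈ Ioo (0 : ℝ) 1 := cZ_J (cZ.sub p hy)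

theorem cZ_c {p : Par} {y : ℝ} (hy : y ∈ cZ.J p) : 0 < 1 - 2 * y := by linarith [hy.2]

theorem cZ_cf (y : ℝ) : cZ.cf y = 2 * (y * (1 - y)) := rfl

/-- `d / dϱ`. -/
def DR (g : Par → ℝ → ℝ) : Par → ℝ → ℝ := fun p y =>
  3 * cZ.D g p y / (2 * (2 * (1 - 2 * y)) * rho0 y)

theorem sa_ρ : cZ.SA (fun _ y => rho0 y) fun _ y => rho0 y := by
  refine sa_log (fun p y hy => (rho0_smooth (cZ_J hy)).contDiffWithinAt)
    (sa_poly (φ := fun y => 4 / 3 * (1 - 2 * y)) (by fun_prop)) fun p y hy => ?_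
  have := (cZ_J hy).1.ne'
  have := (sub_pos.2 (cZ_J hy).2).ne'
  rw [D_eq hy (rho0_deriv (cZ_J hy)), cZ_cf]
  field_simp
  ring

theorem sa_DR {w g : Par → ℝ → ℝ} (h : cZ.SA w g) :
    cZ.SA (fun p y => w p y * (rho0 y)⁻¹) (DR g) := by
  have h2 : cZ.SA (fun _ _ => 1) fun _ y => (1 - 2 * y)⁻¹ :=
    ((sa_poly (φ := fun y => 1 - 2 * y) (by fun_prop)).inv (fun _ y hy => (cZ_c hy).ne')
      (bd_le 2 zero_le_two fun _ y hy => ⟨zero_le_one, by linarith [hy.2]⟩)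
      fun _ _ _ => one_ne_zero).mono (bd_eq fun _ _ _ => inv_one)
  refine ((h2.one_mul (h.D.mul (sa_ρ.inv' fun p y hy => (rho0_pos (cZ_J hy)).ne'))).cmul
    (3 / 4)).congr fun p y hy => ?_
  have := (cZ_c hy).ne'
  have := (rho0_pos (cZ_J hy)).ne'
  simp only [DR]
  field_simp
  ring

theorem sa_R : cZ.SA (fun p y => p.wZ y) fun p y => p.R y := by
  have hc := cZ_nice
  have fr : cZ.SA (fun _ y => rho0 y) fun p y => p.φ y :=
    hc.sa_φ.mono (bd_le 2 zero_le_two fun p y hy => ⟨(p.φ_pos y).le, p.φ_le_rho hy⟩)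
  have m1 : cZ.Bd (fun p y => p.τ + rho0 y) fun _ y => rho0 y :=
    bd_le 1 zero_le_one fun p y hy => ⟨rho0_nonneg (memΩ hy), by linarith [p.τ0]⟩
  have a : cZ.SA (fun p y => p.τ + rho0 y) fun p _ => p.τ :=
    sa_const _ (bd_le 1 zero_le_one fun p y hy => ⟨p.τ0.le, by linarith [rho0_nonneg (memΩ hy)]⟩)
  have b := fr.mono m1
  have r := sa_ρ.mono m1
  have U0 : ∀ p y, y ∈ cZ.J p → 0 < p.φ y * p.φ y + p.φ y * rho0 y + rho0 y * rho0 y :=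
    fun p y hy => by
      have := p.φ_pos y
      have := rho0_pos (cZ_J hy)
      positivity
  have U := (((fr.mul fr).add (fr.mul sa_ρ)).add (sa_ρ.mul sa_ρ)).inv
    (fun p y hy => (U0 p y hy).ne') (bd_le 1 zero_le_one fun p y hy => by
      have := p.φ_pos y
      have := rho0_pos (cZ_Ω hy)
      exact ⟨by positivity, by nlinarith⟩)
    fun p y hy => (mul_pos (rho0_pos (cZ_Ω hy)) (rho0_pos (cZ_Ω hy))).ne'
  have T := (((((a.mul a).cmul (-(27 / 40))).add ((a.mul (b.add r)).cmul (243 / 2240))).sub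
    ((((b.mul b).add (b.mul r)).add (r.mul r)).cmul (81 / 17920))).add
    ((a.mul a).cst _ fun p => p.δc_le 1)).add
    (((a.mul (b.add r)).cst _ fun p => p.δc_le 2).cmul (1 / 10))
  have N : cZ.SA (fun p y => y ^ 3 + p.τ ^ 4) fun p y => (2 - y) * (y ^ 2 * y) + p.τ ^ 4 :=
    (((sa_poly (φ := fun y => 2 - y) (by fun_prop)).one_mul (hc.sa_y.sq.mul hc.sa_y)).mono
      (bd_le 1 zero_le_one fun p y hy => ⟨by have := (memΩ hy).1; positivity, by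
        nlinarith [pow_pos p.τ0 4]⟩)).add
      (sa_const _ (bd_le 1 zero_le_one fun p y hy => ⟨(pow_pos p.τ0 4).le, by
        nlinarith [pow_pos (cZ_Ω hy).1 3]⟩))
  have w0 : ∀ p y, y ∈ cZ.Ω p →
      0 ≤ (y ^ 3 + p.τ ^ 4) * (p.τ ^ 2 + rho0 y ^ 2) / rho0 y ^ 2 := fun p y hy => by
    have := (memΩ hy).1
    positivity
  refine ((hc.sa_y.sq.sq.mono (bd_le 1 zero_le_one fun p y hy => ⟨sq_nonneg _, ?_⟩)).add
    (((N.mul U).mul T).mono (bd_le 2 zero_le_two fun p y hy => ⟨?_, ?_⟩))).congr fun p y hy => ?_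
  · rw [Par.wZ]
    linarith [w0 p y hy]
  · have := (memΩ hy).1
    have := p.τ0
    have := rho0_pos (cZ_Ω hy)
    positivity
  · have y0 := (memΩ hy).1
    have r0 := rho0_pos (cZ_Ω hy)
    have e : 2 * ((y ^ 3 + p.τ ^ 4) * (p.τ ^ 2 + rho0 y ^ 2) / rho0 y ^ 2) =
        (y ^ 3 + p.τ ^ 4) * (rho0 y * rho0 y)⁻¹ * (2 * (p.τ ^ 2 + rho0 y ^ 2)) := by
      field_simp
    have h1 : (y ^ 3 + p.τ ^ 4) * (rho0 y * rho0 y)⁻¹ * ((p.τ + rho0 y) * (p.τ + rho0 y)) ≤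
        (y ^ 3 + p.τ ^ 4) * (rho0 y * rho0 y)⁻¹ * (2 * (p.τ ^ 2 + rho0 y ^ 2)) :=
      mul_le_mul_of_nonneg_left (by nlinarith [sq_nonneg (p.τ - rho0 y)]) (by positivity)
    have h2 : 0 ≤ y ^ 4 := by positivity
    rw [Par.wZ]
    linarith
  · have e : ((2 - y) * (y ^ 2 * y) + p.τ ^ 4) *
        (p.φ y * p.φ y + p.φ y * rho0 y + rho0 y * rho0 y)⁻¹ = p.φ y - rho0 y := by
      rw [mul_inv_eq_iff_eq_mul₀ (U0 p y hy).ne']
      linear_combination rho0_cube (memJ hy) - p.φ_cube y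
    simp only [e, Par.R, PP, Par.q0]
    ring

theorem Dr_eq {u : Par → Fn} {g : Par → ℝ → ℝ} (e : ∀ p, EqOn (u p 0) (g p) (cZ.J p)) (p : Par) :
    EqOn (p.S.Dr (u p) 0) (DR g p) (cZ.J p) := fun y hy => by
  have := D_congr (g' := fun p => u p 0) e p hy
  rw [St.Dr, DR, p.S_kk (memJ hy), p.S_rho, ← this]
  rfl

theorem DR_add {f g : Par → ℝ → ℝ} (hg : cZ.Smo g) {p : Par} {y d : ℝ} (hy : y ∈ cZ.J p)
    (hf : HasDerivAt (f p) d (rho0 y)) :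
    DR (fun p y => f p (rho0 y) + g p y) p y = d + DR g p y := by
  have h1 := (hf.comp y (rho0_deriv (cZ_J hy))).hasDerivWithinAt.add
    (hg.diff hy).hasDerivWithinAt
  have h2 := h1.derivWithin (uniqueDiffOn_Icc zero_lt_one y (memJ hy))
  have h3 : derivWithin (fun y => f p (rho0 y) + g p y) (Icc 0 1) y = _ := h2
  have := (cZ_J hy).1.ne'
  have := (sub_pos.2 (cZ_J hy).2).ne'
  have := (cZ_c hy).ne'
  have := (rho0_pos (cZ_J hy)).ne'
  simp only [DR, Ctx.D, dl, h3, cZ_cf]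
  field_simp

theorem Z1_DR (p : Par) :
    EqOn (p.S.Z1 0) (fun y => p.q1 (rho0 y) + DR (fun p y => p.R y) p y) (cZ.J p) := fun y hy => by
  have h0 : HasDerivAt (fun z : ℝ => z * (1 - z)) (1 - 2 * y) y :=
    ((hasDerivAt_id y).mul ((hasDerivAt_id y).const_sub 1)).congr_deriv (by simp only [id]; ring)
  have r := rho0_deriv (cZ_J hy)
  have h1 : HasDerivAt (fun y => p.R y) _ y := ((((p.H_deriv y).sub h0).sub
    ((id1_PP p.τ (rho0 y)).comp y r)).sub ((p.q0_deriv (rho0 y)).comp y r)).congr_of_eventuallyEq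
      (Eventually.of_forall fun z => by
        simp only [Pi.sub_apply, Function.comp_apply, Par.H_eq, Par.R]
        ring)
  have := (cZ_J hy).1.ne'
  have := (sub_pos.2 (cZ_J hy).2).ne'
  have := (cZ_c hy).ne'
  have := (rho0_pos (cZ_J hy)).ne'
  simp only [p.S_Z1 (memJ hy), DR, D_eq (g := fun p y => p.R y) hy h1, cZ_cf]
  field_simp
  ring

theorem Z3_DR (p : Par) : EqOn (p.S.Z3 0) (DR (DR (DR fun p y => p.R y)) p) (cZ.J p) := by
  have s1 := (sa_DR sa_R).smo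
  have s2 := (sa_DR (sa_DR sa_R)).smo
  have e2 : ∀ p : Par, EqOn (p.S.Z2 0) (fun y => (fun _ => p.δ * (p.c 2 / 5 * p.τ)) (rho0 y) +
      DR (DR fun p y => p.R y) p y) (cZ.J p) := fun p y hy =>
    (Dr_eq (u := fun p => p.S.Z1) Z1_DR p hy).trans
      (DR_add (f := fun p => p.q1) s1 hy (p.q1_deriv _))
  intro y hy
  refine (Dr_eq (u := fun p => p.S.Z2) e2 p hy).trans ?_
  rw [DR_add (f := fun p _ => p.δ * (p.c 2 / 5 * p.τ)) s2 hy (hasDerivAt_const _ _), zero_add]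

theorem z_est : ∃ C, 0 ≤ C ∧ ∀ p : Par, ∀ y ∈ Icc (p.τ ^ 2) (1 / 4),
    |p.S.Z0 0 y - p.q0 (rho0 y)| ≤ C * p.wZ y ∧
    |p.S.Z1 0 y - p.q1 (rho0 y)| ≤ C * (p.wZ y / rho0 y) ∧
    |p.S.Z3 0 y| ≤ C * (p.wZ y / rho0 y ^ 3) := by
  obtain ⟨C0, p0, h0⟩ := sa_R.bd
  obtain ⟨C1, p1, h1⟩ := (sa_DR sa_R).bd
  obtain ⟨C3, p3, h3⟩ := (sa_DR (sa_DR (sa_DR sa_R))).bd
  refine ⟨C0 + C1 + C3, by positivity, fun p y hy => ?_⟩
  have hΩ : y ∈ cZ.Ω p := hy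
  have hJ := cZ.sub p hΩ
  have w0 := p.wZ_nonneg (memΩ hΩ)
  have r0 := rho0_pos (cZ_J hJ)
  have a0 := h0 p y hΩ
  have a1 := h1 p y hΩ
  have a3 := h3 p y hΩ
  beta_reduce at a0 a1 a3
  rw [abs_of_nonneg w0] at a0
  rw [← div_eq_mul_inv, abs_of_nonneg (a := p.wZ y / _) (by positivity)] at a1
  rw [show p.wZ y * (rho0 y)⁻¹ * (rho0 y)⁻¹ * (rho0 y)⁻¹ = p.wZ y / rho0 y ^ 3 by field_simp,
    abs_of_nonneg (a := p.wZ y / _) (by positivity)] at a3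
  rw [p.S_Z0 (memΩ hΩ), Z1_DR p hJ, Z3_DR p hJ, add_sub_cancel_left, add_sub_cancel_left]
  exact ⟨a0.trans (mul_le_mul_of_nonneg_right (by linarith) w0),
    a1.trans (mul_le_mul_of_nonneg_right (by linarith) (by positivity)),
    a3.trans (mul_le_mul_of_nonneg_right (by linarith) (by positivity))⟩

end

end Vale.Agent.P244
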