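import Vale.Agent.P244.Good
import Vale.Agent.P244.D.XU
import Vale.Agent.P244.D.Z
import Vale.Agent.P244.D.Cm

/-!
P244 block D: the initial data lie in the improved trap, and their exit values.
-/

namespace Vale.Agent.P244

open scoped ContDiff Topology
open Set Filter Real

theorem good_tr : ∃ M, ∀ κ : Cst, M ≤ κ.A1 → M ≤ κ.Am → M ≤ κ.AE → M ≤ κ.AS → 0 < κ.s →
    κ.s ≤ 1 / 2 → ∀ p : Par, p.τ ≤ κ.s / 2 → Tr κ p.S (1 / 2) 0 := by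
  obtain ⟨M1, h1⟩ := x_est 2
  obtain ⟨M2, h2⟩ := u_est 0
  refine ⟨2 * |M1| + 2 * |M2| + 16, fun κ a1 am ae as s0 s1 p hτ => ?_⟩
  have n1 := abs_nonneg M1
  have n2 := abs_nonneg M2
  have l1 := le_abs_self M1
  have l2 := le_abs_self M2
  have s3 : κ.s ^ 3 ≤ 1 / 8 := (pow_le_pow_left₀ s0.le s1 3).trans (by norm_num)
  refine ⟨fun y hy => ?_, fun y _ => by simp, fun y hy => ?_⟩
  · obtain ⟨b1, b2⟩ := h1 p 1 le_rfl one_le_two y hy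
    obtain ⟨b3, b4⟩ := h1 p 2 one_le_two le_rfl y hy
    exact ⟨b1.trans (by linarith), b3.trans (by linarith), b2.trans (by linarith),
      b4.trans (by linarith)⟩
  · have y0 := hy.1
    have y1 : y ≤ 1 / 8 := hy.2.trans s3
    have m : y ∈ Icc (0 : ℝ) 1 := ⟨y0, by linarith⟩
    obtain ⟨b1, b2⟩ := h2 p 0 le_rfl y ⟨y0, by linarith⟩
    have t3 := pow_pos p.τ0 3
    refine ⟨b2.trans (by linarith), b1.trans (by linarith), ?_, ?_, ?_, ?_, ?_⟩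
    · rw [p.S_HH m, Par.S_τ, sub_zero]
      linarith [p.H_lo m]
    · rw [p.S_EE m, p.S_sg]
      exact (p.E_abs m).trans
        (mul_le_mul_of_nonneg_right (by linarith) (pow_pos (p.σ_pos y) 3).le)
    · rw [p.S_th m, div_le_iff₀ (p.H_pos m)]
      nlinarith [p.E_lo m, pow_nonneg y0 4]
    · rw [p.S_hh]
      refine le_of_pow_le_pow_left₀ (n := 3) (by norm_num) (by positivity) ?_
      have := pow_le_pow_left₀ p.τ0.le hτ 3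
      rw [p.h_cube m]
      nlinarith [p.H_hi m, hy.2, pow_pos s0 3]
    · rw [p.S_kk m]
      linarith

theorem good_lev {η τ s : ℝ} (η1 : η ≤ 1 / 1000) (τ0 : 0 < τ) (hτ : τ ≤ s ^ 2) (s0 : 0 < s)
    (s1 : s ≤ 1 / 2) : 2 * η * τ < rho0 (s ^ 3) := by
  have s3 : s ^ 3 ≤ 1 / 8 := (pow_le_pow_left₀ s0.le s1 3).trans (by norm_num)
  have p3 := pow_pos s0 3
  have m : s ^ 3 ∈ Icc (0 : ℝ) 1 := ⟨p3.le, by linarith⟩
  have a : s ^ 2 / 2 ≤ rho0 (s ^ 3) := by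
    refine le_of_pow_le_pow_left₀ (n := 3) (by norm_num) (rho0_nonneg m) ?_
    have b : s ^ 3 / 2 ≤ s ^ 3 * (1 - s ^ 3) := by nlinarith
    have b2 := pow_le_pow_left₀ (by positivity) b 2
    rw [rho0_cube m]
    nlinarith [pow_pos s0 6]
  nlinarith

theorem lev_est {η ε : ℝ} (η0 : 0 < η) (η1 : η ≤ 1 / 1000) (ε0 : 0 < ε) :
    ∃ τ₁ > 0, ∀ p : Par, p.τ ≤ τ₁ → ∀ y ∈ Icc (0 : ℝ) (1 / 4), η * p.τ ≤ rho0 y →
      rho0 y ≤ 2 * η * p.τ → |p.S.Z0 0 y - p.q0 (rho0 y)| ≤ ε * p.τ ^ 3 ∧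
        |p.S.Z1 0 y - p.q1 (rho0 y)| ≤ ε * p.τ ^ 2 := by
  obtain ⟨C, C0, hC⟩ := z_est
  refine ⟨min (η ^ 3) (ε * η ^ 3 / (5 * C + 1)), by positivity, fun p hτ y hy h1 h2 => ?_⟩
  have t0 := p.τ0
  have m : y ∈ Icc (0 : ℝ) 1 := ⟨hy.1, by linarith [hy.2]⟩
  obtain ⟨a0, a1, -⟩ := hC p y ⟨p.lev_lo η0 (hτ.trans (min_le_left _ _)) m h1, hy.2⟩
  have w := p.wZ_lev η0 η1 hy h1 h2
  have b : p.τ * (5 * C + 1) ≤ ε * η ^ 3 :=
    (le_div_iff₀ (by positivity)).1 (hτ.trans (min_le_right _ _))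
  have b1 : C * (5 * p.τ ^ 4 / η ^ 2 / (η * p.τ)) ≤ ε * p.τ ^ 2 := by
    rw [show C * (5 * p.τ ^ 4 / η ^ 2 / (η * p.τ)) = p.τ * (5 * C) * p.τ ^ 2 / η ^ 3 by field_simp,
      div_le_iff₀ (by positivity), mul_right_comm ε]
    exact mul_le_mul_of_nonneg_right (by nlinarith) (by positivity)
  have b0 : C * (5 * p.τ ^ 4 / η ^ 2) ≤ ε * p.τ ^ 3 := by
    have e : C * (5 * p.τ ^ 4 / η ^ 2) = C * (5 * p.τ ^ 4 / η ^ 2 / (η * p.τ)) * (η * p.τ) := by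
      field_simp
    rw [e, show ε * p.τ ^ 3 = ε * p.τ ^ 2 * (1 * p.τ) by ring]
    exact mul_le_mul b1 (mul_le_mul_of_nonneg_right (by linarith) t0.le) (by positivity)
      (by positivity)
  refine ⟨a0.trans ((mul_le_mul_of_nonneg_left w C0).trans b0), a1.trans (le_trans ?_ b1)⟩
  exact mul_le_mul_of_nonneg_left (div_le_div₀ (by positivity) w (by positivity) h1) C0

theorem Par.contZ (p : Par) {y : ℝ} (hy : y ∈ Icc (0 : ℝ) 1) :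
    ContinuousOn (fun c => (S0 p.δ p.τ c).Z0 0 y) {c : Fin 3 → ℝ | ∀ j, |c j| ≤ 1} ∧
    ContinuousOn (fun c => (S0 p.δ p.τ c).Z1 0 y) {c : Fin 3 → ℝ | ∀ j, |c j| ≤ 1} := by
  constructor
  · refine ContinuousOn.congr (f := fun c => H0 p.δ p.τ c y - y * (1 - y) - PP p.τ (rho0 y))
      (Continuous.continuousOn (by unfold H0; fun_prop)) fun c hc => ?_
    have := (p.wc ⟨c, hc⟩).S_EE hy
    simp only [St.Z0, S0_rho]
    exact congrArg₂ (· - ·) this (by simp [S0])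
  · exact ContinuousOn.congr (f := fun c : Fin 3 → ℝ => 3 * (2 * (y * (1 - y)) * (4 * y ^ 3 + 2 / 3 *
      ((PP1 p.τ (p.φ y) + p.δ * (c 1 * p.τ ^ 2 + c 2 / 5 * p.τ * p.φ y)) *
        (y * (p.φ y ^ 2)⁻¹)))) / (2 * (2 * (1 - 2 * y)) * rho0 y) - PP1 p.τ (rho0 y))
      (Continuous.continuousOn (by fun_prop)) fun c hc => (p.wc ⟨c, hc⟩).S_Z1 hy

theorem div_est {Z D a e : ℝ} (hD : 0 < D) (h : |Z - D * a| ≤ D * e) :
    a - e ≤ Z / D ∧ Z / D ≤ a + e := by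
  rw [le_div_iff₀ hD, div_le_iff₀ hD]
  constructor <;> linarith [(abs_le.1 h).1, (abs_le.1 h).2]

theorem ex_alg {δ η τ z0 za zb : ℝ} {c : Fin 3 → ℝ} (hc : ∀ j, |c j| ≤ 1) (δ0 : 0 < δ) (η0 : 0 < η)
    (η1 : η ≤ 1 / 1000) (τ0 : 0 < τ)
    (a0 : |z0 - δ * (2 * c 0 * τ ^ 3 + c 1 * τ ^ 2 * (η * τ) + c 2 / 10 * τ * (η * τ) ^ 2)| ≤
      δ * η / 100 * τ ^ 3)
    (a1 : |za - δ * (c 1 * τ ^ 2 + c 2 / 5 * τ * (η * τ))| ≤ δ * η / 100 * τ ^ 2)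
    (b1 : |zb - δ * (c 1 * τ ^ 2 + c 2 / 5 * τ * (2 * η * τ))| ≤ δ * η / 100 * τ ^ 2) (j : Fin 3) :
    (c j = 1 → 1 ≤ ![z0 / (δ * (τ - 0) ^ 3), za / (δ / 2 * (τ - 0) ^ 2),
      (zb - za) / (δ / 10 * η * (τ - 0) ^ 2)] j) ∧
    (c j = -1 → ![z0 / (δ * (τ - 0) ^ 3), za / (δ / 2 * (τ - 0) ^ 2),
      (zb - za) / (δ / 10 * η * (τ - 0) ^ 2)] j ≤ -1) := by
  have c1 := abs_le.1 (hc 1)
  have c2 := abs_le.1 (hc 2)
  have k1 : -η ≤ c 1 * η ∧ c 1 * η ≤ η := by constructor <;> nlinarith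
  have k2 : -η ≤ c 2 * η ∧ c 2 * η ≤ η := by constructor <;> nlinarith
  have k3 : -η ≤ c 2 * η ^ 2 ∧ c 2 * η ^ 2 ≤ η := by constructor <;> nlinarith
  rw [abs_le] at a0 a1 b1
  rw [sub_zero]
  have x0 := div_est (Z := z0) (D := δ * τ ^ 3) (a := 2 * c 0 + c 1 * η + c 2 * η ^ 2 / 10)
    (e := η / 100) (by positivity) (abs_le.2 ⟨by linarith [a0.1], by linarith [a0.2]⟩)
  have x1 := div_est (Z := za) (D := δ / 2 * τ ^ 2) (a := 2 * c 1 + 2 / 5 * (c 2 * η))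
    (e := η / 50) (by positivity) (abs_le.2 ⟨by linarith [a1.1], by linarith [a1.2]⟩)
  have x2 := div_est (Z := zb - za) (D := δ / 10 * η * τ ^ 2) (a := 2 * c 2) (e := 1 / 5)
    (by positivity) (abs_le.2 ⟨by linarith [a1.2, b1.1], by linarith [a1.1, b1.2]⟩)
  fin_cases j
  · exact ⟨fun hj => le_trans (by have : c 0 = 1 := hj; linarith) x0.1,
      fun hj => x0.2.trans (by have : c 0 = -1 := hj; linarith)⟩
  · exact ⟨fun hj => le_trans (by have : c 1 = 1 := hj; linarith) x1.1,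
      fun hj => x1.2.trans (by have : c 1 = -1 := hj; linarith)⟩
  · exact ⟨fun hj => le_trans (by have : c 2 = 1 := hj; linarith) x2.1,
      fun hj => x2.2.trans (by have : c 2 = -1 := hj; linarith)⟩

theorem good_ex (κ : Cst) (η0 : 0 < κ.η) (η1 : κ.η ≤ 1 / 1000) (δ0 : 0 < κ.δ) (s0 : 0 < κ.s)
    (s1 : κ.s ≤ 1 / 2) : ∃ τ₁ > 0, ∀ p : Par, p.δ = κ.δ → p.τ ≤ τ₁ →
      ∃ x : (Fin 3 → ℝ) → Fin 3 → ℝ, ContinuousOn x {c : Fin 3 → ℝ | ∀ j, |c j| ≤ 1} ∧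
        ∀ c : Fin 3 → ℝ, (∀ j, |c j| ≤ 1) → Ex κ (S0 κ.δ p.τ c) 0 (x c) ∧
          ∀ j, (c j = 1 → 1 ≤ x c j) ∧ (c j = -1 → x c j ≤ -1) := by
  obtain ⟨τ₁, τ1, hτ⟩ := lev_est η0 η1 (ε := κ.δ * κ.η / 100) (by positivity)
  refine ⟨min τ₁ (κ.s ^ 2), by positivity, fun p e h => ?_⟩
  have t0 := p.τ0
  have s3 : κ.s ^ 3 ≤ 1 / 8 := (pow_le_pow_left₀ s0.le s1 3).trans (by norm_num)
  have lv := good_lev η1 t0 (h.trans (min_le_right _ _)) s0 s1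
  have iv := intermediate_value_Icc (pow_pos s0 3).le rho0_cont.continuousOn
  have r0 : rho0 0 = 0 := by simp [rho0]
  have e0 : 0 < κ.η * p.τ := by positivity
  rw [r0] at iv
  obtain ⟨ya, ha, ea⟩ := iv (show κ.η * p.τ ∈ _ from ⟨e0.le, by linarith⟩)
  obtain ⟨yb, hb, eb⟩ := iv (show 2 * κ.η * p.τ ∈ _ from ⟨by linarith, lv.le⟩)
  have ma : ya ∈ Icc (0 : ℝ) 1 := ⟨ha.1, by linarith [ha.2]⟩
  have mb : yb ∈ Icc (0 : ℝ) 1 := ⟨hb.1, by linarith [hb.2]⟩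
  refine ⟨fun c => exv κ (S0 κ.δ p.τ c) 0 ya yb, ?_, fun c hc => ⟨⟨ya, ha, yb, hb, ?_, ?_, rfl⟩, ?_⟩⟩
  · obtain ⟨a0, a1⟩ := p.contZ ma
    obtain ⟨-, b1⟩ := p.contZ mb
    rw [e] at a0 a1 b1
    refine continuousOn_pi.2 fun j => ?_
    fin_cases j
    · exact a0.div_const (κ.δ * (p.τ - 0) ^ 3)
    · exact a1.div_const (κ.δ / 2 * (p.τ - 0) ^ 2)
    · exact (b1.sub a1).div_const (κ.δ / 10 * κ.η * (p.τ - 0) ^ 2)
  · rw [S0_rho, ea]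
    simp [S0]
  · rw [S0_rho, eb]
    simp [S0]
  · obtain ⟨a0, a1⟩ := hτ (p.wc ⟨c, hc⟩) (h.trans (min_le_left _ _)) ya
      ⟨ha.1, by linarith [ha.2]⟩ ea.ge (by rw [ea]; exact (by linarith : κ.η * p.τ ≤ 2 * κ.η * p.τ))
    obtain ⟨-, b1⟩ := hτ (p.wc ⟨c, hc⟩) (h.trans (min_le_left _ _)) yb
      ⟨hb.1, by linarith [hb.2]⟩ (by rw [eb]; exact (by linarith : κ.η * p.τ ≤ 2 * κ.η * p.τ)) eb.le
    simp only [Par.S, Par.wc, Par.q0, Par.q1, ea, eb, e] at a0 a1 b1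
    exact ex_alg hc δ0 η0 η1 t0 a0 a1 b1

end Vale.Agent.P244
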