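import Vale.Agent.P244.A.Id1
import Vale.Agent.P244.Kit.Sy

/-!
P244 block D (sub-lead helper10): parameters of the initial data and pointwise facts.
-/

namespace Vale.Agent.P244

open scoped ContDiff Topology
open Set Filter Real

noncomputable section

/-- Parameters of the initial data. -/
structure Par where
  δ : ℝ
  τ : ℝ
  c : Fin 3 → ℝ
  δ0 : 0 < δ
  δ1 : δ ≤ 1 / 100
  τ0 : 0 < τ
  τ1 : τ ≤ 1 / 100
  cube : ∀ j, |c j| ≤ 1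

/-- The initial `ϱ`. -/
def rho0 (y : ℝ) : ℝ := (y * (1 - y)) ^ (2 / 3 : ℝ)

theorem rho0_pos {y : ℝ} (hy : y ∈ Ioo (0 : ℝ) 1) : 0 < rho0 y :=
  rpow_pos_of_pos (St.id0_v' hy) _

theorem rho0_nonneg {y : ℝ} (hy : y ∈ Icc (0 : ℝ) 1) : 0 ≤ rho0 y :=
  rpow_nonneg (St.id0_v hy) _

theorem rho0_cube {y : ℝ} (hy : y ∈ Icc (0 : ℝ) 1) : rho0 y ^ 3 = (y * (1 - y)) ^ 2 := by
  rw [rho0, ← rpow_natCast, ← rpow_mul (St.id0_v hy), ← rpow_natCast]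
  norm_num

theorem rho0_smooth {y : ℝ} (hy : y ∈ Ioo (0 : ℝ) 1) : ContDiffAt ℝ ∞ rho0 y :=
  ContDiffAt.rpow_const_of_ne (contDiffAt_id.mul (contDiffAt_const.sub contDiffAt_id))
    (St.id0_v' hy).ne'

theorem rho0_cont : Continuous rho0 :=
  (continuous_id.mul (continuous_const.sub continuous_id)).rpow_const fun _ => Or.inr (by norm_num)

theorem rho0_deriv {y : ℝ} (hy : y ∈ Ioo (0 : ℝ) 1) :
    HasDerivAt rho0 (2 / 3 * (1 - 2 * y) * rho0 y / (y * (1 - y))) y := by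
  have v0 := (St.id0_v' hy).ne'
  have h1 : HasDerivAt (fun z : ℝ => z * (1 - z)) (1 - 2 * y) y :=
    ((hasDerivAt_id y).mul ((hasDerivAt_id y).const_sub 1)).congr_deriv (by simp only [id]; ring)
  refine (h1.rpow_const (p := (2 / 3 : ℝ)) (Or.inl v0)).congr_deriv ?_
  rw [rpow_sub_one v0, rho0]
  ring

namespace Par

variable (p : Par)

def S : St := S0 p.δ p.τ p.c
def φ (y : ℝ) : ℝ := phi p.τ y
def H (y : ℝ) : ℝ := H0 p.δ p.τ p.c y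
def h (y : ℝ) : ℝ := exp (1 / 3 * log (p.H y))
def σ (y : ℝ) : ℝ := p.τ + p.h y ^ 2
def q0 (r : ℝ) : ℝ := p.δ * (2 * p.c 0 * p.τ ^ 3 + p.c 1 * p.τ ^ 2 * r + p.c 2 / 10 * p.τ * r ^ 2)
def q1 (r : ℝ) : ℝ := p.δ * (p.c 1 * p.τ ^ 2 + p.c 2 / 5 * p.τ * r)
def Q (y : ℝ) : ℝ := PP1 p.τ (p.φ y) + p.q1 (p.φ y)
/-- `G = ∂_y (H - y (1 - y))`. -/
def G (y : ℝ) : ℝ := 4 * y ^ 3 + 2 / 3 * (p.Q y * (y * (p.φ y ^ 2)⁻¹))
/-- The weight of `G`. -/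
def wG (y : ℝ) : ℝ := y + p.τ ^ 2 * y / p.φ y ^ 2
/-- `R = Z₀ - q₀(ϱ)`. -/
def R (y : ℝ) : ℝ :=
  y ^ 4 + (PP p.τ (p.φ y) - PP p.τ (rho0 y)) + (p.q0 (p.φ y) - p.q0 (rho0 y))
/-- The weight of `R`. -/
def wZ (y : ℝ) : ℝ := y ^ 4 + (y ^ 3 + p.τ ^ 4) * (p.τ ^ 2 + rho0 y ^ 2) / rho0 y ^ 2

theorem H_eq (y : ℝ) : p.H y = y * (1 - y) + y ^ 4 + PP p.τ (p.φ y) + p.q0 (p.φ y) := rfl

theorem p_pos (y : ℝ) : 0 < y ^ 2 + p.τ ^ 4 :=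
  add_pos_of_nonneg_of_pos (sq_nonneg y) (pow_pos p.τ0 4)

theorem φ_pos (y : ℝ) : 0 < p.φ y := rpow_pos_of_pos (p.p_pos y) _

theorem φ_cube (y : ℝ) : p.φ y ^ 3 = y ^ 2 + p.τ ^ 4 := by
  rw [φ, phi, ← rpow_natCast, ← rpow_mul (p.p_pos y).le]
  norm_num

theorem φ_smooth : ContDiff ℝ ∞ p.φ :=
  ContDiff.rpow_const_of_ne ((contDiff_id.pow 2).add contDiff_const) fun y => (p.p_pos y).ne'

theorem φ_deriv (y : ℝ) : HasDerivAt p.φ (2 / 3 * (y * (p.φ y ^ 2)⁻¹)) y := by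
  have h1 : HasDerivAt (fun z : ℝ => z ^ 2 + p.τ ^ 4) (2 * y) y :=
    ((hasDerivAt_pow 2 y).add_const _).congr_deriv (by norm_num)
  refine (h1.rpow_const (p := (1 / 3 : ℝ)) (Or.inl (p.p_pos y).ne')).congr_deriv ?_
  have e : (y ^ 2 + p.τ ^ 4) ^ ((1 / 3 : ℝ) - 1) = p.φ y / p.φ y ^ 3 := by
    rw [rpow_sub_one (p.p_pos y).ne', φ_cube]
    rfl
  have := (p.φ_pos y).ne'
  rw [e]
  field_simp

theorem q0_deriv (r : ℝ) : HasDerivAt p.q0 (p.q1 r) r := by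
  refine (((((hasDerivAt_id r).const_mul (p.c 1 * p.τ ^ 2)).const_add (2 * p.c 0 * p.τ ^ 3)).add
    ((hasDerivAt_pow 2 r).const_mul (p.c 2 / 10 * p.τ))).const_mul p.δ).congr_deriv ?_
  simp only [q1]
  push_cast
  ring

theorem q1_deriv (r : ℝ) : HasDerivAt p.q1 (p.δ * (p.c 2 / 5 * p.τ)) r := by
  refine ((((hasDerivAt_id r).const_mul (p.c 2 / 5 * p.τ)).const_add
    (p.c 1 * p.τ ^ 2)).const_mul p.δ).congr_deriv ?_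
  ring

theorem H_smooth : ContDiff ℝ ∞ p.H := by
  have := p.φ_smooth
  unfold H H0 PP
  change ContDiff ℝ ∞ fun y => y * (1 - y) + y ^ 4 + (p.τ ^ 3 - 27 / 40 * p.τ ^ 2 * p.φ y +
    243 / 2240 * p.τ * p.φ y ^ 2 - 81 / 17920 * p.φ y ^ 3) + p.δ * (2 * p.c 0 * p.τ ^ 3 +
      p.c 1 * p.τ ^ 2 * p.φ y + p.c 2 / 10 * p.τ * p.φ y ^ 2)
  fun_prop

theorem H_deriv (y : ℝ) : HasDerivAt p.H (1 - 2 * y + p.G y) y := by
  have h1 : HasDerivAt (fun z : ℝ => z * (1 - z)) (1 - 2 * y) y :=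
    ((hasDerivAt_id y).mul ((hasDerivAt_id y).const_sub 1)).congr_deriv (by simp only [id]; ring)
  refine (((h1.add (hasDerivAt_pow 4 y)).add ((id1_PP p.τ (p.φ y)).comp y (p.φ_deriv y))).add
    ((p.q0_deriv (p.φ y)).comp y (p.φ_deriv y))).congr_deriv ?_
  simp only [G, Q]
  push_cast
  ring

theorem h_pos (y : ℝ) : 0 < p.h y := exp_pos _

theorem σ_pos (y : ℝ) : 0 < p.σ y := add_pos p.τ0 (pow_pos (p.h_pos y) 2)

variable {y : ℝ}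

theorem φ3_le (hy : y ∈ Icc (0 : ℝ) 1) : p.φ y ^ 3 ≤ y + p.τ ^ 3 / 100 := by
  have := p.τ1
  have := pow_pos p.τ0 3
  rw [φ_cube]
  nlinarith [hy.1, hy.2]

theorem t2φ_le (hy : y ∈ Icc (0 : ℝ) 1) : p.τ ^ 2 * p.φ y ≤ y / 100 + p.τ ^ 3 / 4 := by
  have t0 := p.τ0
  have t1 := p.τ1
  have y0 := hy.1
  refine le_of_pow_le_pow_left₀ (n := 3) (by norm_num) (by positivity) ?_
  rw [mul_pow, φ_cube]
  have a : p.τ ^ 3 ≤ 1 / 1000000 := (pow_le_pow_left₀ t0.le t1 3).trans (by norm_num)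
  have b1 : p.τ ^ 3 * (y ^ 2 * p.τ ^ 3) ≤ 1 / 1000000 * (y ^ 2 * p.τ ^ 3) :=
    mul_le_mul_of_nonneg_right a (by positivity)
  have b2 : p.τ * p.τ ^ 9 ≤ 1 / 100 * p.τ ^ 9 := mul_le_mul_of_nonneg_right t1 (by positivity)
  have b3 : 0 ≤ y ^ 3 := by positivity
  have b4 : 0 ≤ y * p.τ ^ 6 := by positivity
  have b5 : 0 ≤ y ^ 2 * p.τ ^ 3 := by positivity
  have b6 : 0 ≤ p.τ ^ 9 := by positivity
  nlinarith

theorem tφ2_le (hy : y ∈ Icc (0 : ℝ) 1) : p.τ * p.φ y ^ 2 ≤ y / 100 + p.τ ^ 3 / 4 := by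
  have t0 := p.τ0
  have t1 := p.τ1
  have y0 := hy.1
  refine le_of_pow_le_pow_left₀ (n := 3) (by norm_num) (by positivity) ?_
  rw [mul_pow, ← pow_mul, mul_comm 2 3, pow_mul, φ_cube]
  have a : p.τ ^ 3 ≤ 1 / 1000000 := (pow_le_pow_left₀ t0.le t1 3).trans (by norm_num)
  have a2 : p.τ ^ 2 ≤ 1 / 10000 := (pow_le_pow_left₀ t0.le t1 2).trans (by norm_num)
  have a4 : p.τ ^ 4 ≤ 1 / 100000000 := (pow_le_pow_left₀ t0.le t1 4).trans (by norm_num)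
  have b0 : p.τ ^ 3 * y ≤ 1 / 1000000 * 1 := mul_le_mul a hy.2 y0 (by norm_num)
  have b1 : p.τ ^ 3 * y * y ^ 3 ≤ 1 / 1000000 * 1 * y ^ 3 :=
    mul_le_mul_of_nonneg_right b0 (by positivity)
  have b2 : p.τ ^ 2 * p.τ ^ 9 ≤ 1 / 10000 * p.τ ^ 9 := mul_le_mul_of_nonneg_right a2 (by positivity)
  have b3 : p.τ ^ 4 * (y ^ 2 * p.τ ^ 3) ≤ 1 / 100000000 * (y ^ 2 * p.τ ^ 3) :=
    mul_le_mul_of_nonneg_right a4 (by positivity)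
  have b4 : 0 ≤ y * p.τ ^ 6 := by positivity
  have b5 : 0 ≤ y ^ 2 * p.τ ^ 3 := by positivity
  have b6 : 0 ≤ p.τ ^ 9 := by positivity
  nlinarith

/-- The perturbation is small. -/
theorem q0_le {r : ℝ} (hr : 0 ≤ r) :
    |p.q0 r| ≤ (2 * p.τ ^ 3 + p.τ ^ 2 * r + p.τ * r ^ 2 / 10) / 100 := by
  have t0 := p.τ0
  have a0 : |2 * p.c 0 * p.τ ^ 3| ≤ 2 * p.τ ^ 3 := by
    rw [abs_mul, abs_mul, abs_of_pos (pow_pos t0 3), abs_two]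
    nlinarith [p.cube 0, pow_pos t0 3]
  have a1 : |p.c 1 * p.τ ^ 2 * r| ≤ p.τ ^ 2 * r := by
    rw [mul_assoc, abs_mul, abs_of_nonneg (a := p.τ ^ 2 * r) (by positivity)]
    exact mul_le_of_le_one_left (by positivity) (p.cube 1)
  have a2 : |p.c 2 / 10 * p.τ * r ^ 2| ≤ p.τ * r ^ 2 / 10 := by
    rw [show p.c 2 / 10 * p.τ * r ^ 2 = p.c 2 * (p.τ * r ^ 2 / 10) by ring, abs_mul,
      abs_of_nonneg (a := p.τ * r ^ 2 / 10) (by positivity)]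
    exact mul_le_of_le_one_left (by positivity) (p.cube 2)
  rw [q0, abs_mul, abs_of_pos p.δ0]
  have a3 := (abs_add_three _ _ _).trans (add_le_add (add_le_add a0 a1) a2)
  calc _ ≤ 1 / 100 * (2 * p.τ ^ 3 + p.τ ^ 2 * r + p.τ * r ^ 2 / 10) :=
        mul_le_mul p.δ1 a3 (abs_nonneg _) (by norm_num)
    _ = _ := by ring

theorem E_lo (hy : y ∈ Icc (0 : ℝ) 1) : y * (1 - y) + y ^ 4 - y / 50 + p.τ ^ 3 / 2 ≤ p.H y := by
  have a := (abs_le.1 (p.q0_le (p.φ_pos y).le)).1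
  have b1 := p.φ3_le hy
  have b2 := p.t2φ_le hy
  have b3 : 0 ≤ p.τ * p.φ y ^ 2 := mul_nonneg p.τ0.le (sq_nonneg _)
  have b4 := pow_pos p.τ0 3
  have y0 := hy.1
  rw [H_eq, PP]
  linarith

theorem H_lo (hy : y ∈ Icc (0 : ℝ) 1) : (y + p.τ ^ 3) / 2 ≤ p.H y := by
  have a := p.E_lo hy
  have b : 0 ≤ y * (y ^ 3 - y + 12 / 25) := mul_nonneg hy.1 (by
    nlinarith [hy.1, mul_nonneg hy.1 (sq_nonneg (y - 3 / 5)), sq_nonneg (y - 3 / 5)])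
  nlinarith

theorem H_hi (hy : y ∈ Icc (0 : ℝ) 1) : p.H y ≤ 3 / 2 * y + 2 * p.τ ^ 3 := by
  have a := (abs_le.1 (p.q0_le (p.φ_pos y).le)).2
  have b1 : 0 ≤ p.φ y ^ 3 := (pow_pos (p.φ_pos y) 3).le
  have b2 := p.t2φ_le hy
  have b3 := p.tφ2_le hy
  have b4 := pow_pos p.τ0 3
  have b5 : 0 ≤ p.τ ^ 2 * p.φ y := mul_nonneg (sq_nonneg _) (p.φ_pos y).le
  have y0 := hy.1
  have b6 : y ^ 4 ≤ y ^ 2 := pow_le_pow_of_le_one y0 hy.2 (by norm_num)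
  rw [H_eq, PP]
  nlinarith

theorem H_pos (hy : y ∈ Icc (0 : ℝ) 1) : 0 < p.H y :=
  lt_of_lt_of_le (by have := pow_pos p.τ0 3; have := hy.1; positivity) (p.H_lo hy)

theorem h_cube (hy : y ∈ Icc (0 : ℝ) 1) : p.h y ^ 3 = p.H y := by
  rw [h, ← St.id0_three, show 3 * (1 / 3 * log (p.H y)) = log (p.H y) by ring, exp_log (p.H_pos hy)]

end Par

end

end Vale.Agent.P244
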