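import Vale.Agent.P244.Kit.Sy

/-!
P244 block D: symbols of all orders.
-/

namespace Vale.Agent.P244

open scoped ContDiff Topology
open Set Filter Real

namespace Ctx

variable {ι : Type} (c : Ctx ι)

/-- Symbols of all orders. -/
def SA (w g : ι → ℝ → ℝ) : Prop := ∀ n, c.Sy n w g

variable {c} {w w' g g' : ι → ℝ → ℝ}

theorem memJ {i : ι} {y : ℝ} (hy : y ∈ c.J i) : y ∈ Icc (0 : ℝ) 1 := (c.ro i y hy).1

theorem memΩ {i : ι} {y : ℝ} (hy : y ∈ c.Ω i) : y ∈ Icc (0 : ℝ) 1 := memJ (c.sub i hy)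

theorem bd_le (C : ℝ) (hC : 0 ≤ C) (h : ∀ i, ∀ y ∈ c.Ω i, 0 ≤ g i y ∧ g i y ≤ C * w i y) :
    c.Bd w g := ⟨C, hC, fun i y hy => by
  rw [abs_of_nonneg (h i y hy).1]
  exact (h i y hy).2.trans (mul_le_mul_of_nonneg_left (le_abs_self _) hC)⟩

theorem bd_eq (h : ∀ i, ∀ y ∈ c.Ω i, g i y = w i y) : c.Bd w g :=
  (Bd.refl' c w).congr' h fun _ _ _ => rfl

theorem D_eq {i : ι} {y d : ℝ} (hy : y ∈ c.J i) (h : HasDerivAt (g i) d y) :
    c.D g i y = c.cf y * d :=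
  congrArg (c.cf y * ·) (h.hasDerivWithinAt.derivWithin (uniqueDiffOn_Icc zero_lt_one y (memJ hy)))

theorem SA.smo (h : c.SA w g) : c.Smo g := (h 0).1
theorem SA.bd (h : c.SA w g) : c.Bd w g := (h 1).bd
theorem SA.D (h : c.SA w g) : c.SA w (c.D g) := fun n => (h (n + 1)).D
theorem SA.mono (h : c.SA w g) (hw : c.Bd w' w) : c.SA w' g := fun n => (h n).mono hw
theorem SA.congr (h : c.SA w g) (e : ∀ i, EqOn (g' i) (g i) (c.J i)) : c.SA w g' :=
  fun n => (h n).congr e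
theorem SA.add (h : c.SA w g) (h' : c.SA w g') : c.SA w fun i y => g i y + g' i y :=
  fun n => (h n).add (h' n)
theorem SA.sub (h : c.SA w g) (h' : c.SA w g') : c.SA w fun i y => g i y - g' i y :=
  fun n => (h n).sub (h' n)
theorem SA.cmul (h : c.SA w g) (a : ℝ) : c.SA w fun i y => a * g i y := fun n => (h n).cmul a
theorem SA.mul (h : c.SA w g) (h' : c.SA w' g') :
    c.SA (fun i y => w i y * w' i y) fun i y => g i y * g' i y :=
  fun n => ((h (n + 1)).mul (h' (n + 1))).pred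
theorem SA.inv (h : c.SA w g) (h0 : ∀ i, ∀ y ∈ c.J i, g i y ≠ 0) (hw : c.Bd g w)
    (hw0 : ∀ i, ∀ y ∈ c.Ω i, w i y ≠ 0) : c.SA (fun i y => (w i y)⁻¹) fun i y => (g i y)⁻¹ :=
  fun n => ((h (n + 1)).inv h0 hw hw0).pred
theorem SA.inv' (h : c.SA g g) (h0 : ∀ i, ∀ y ∈ c.J i, g i y ≠ 0) :
    c.SA (fun i y => (g i y)⁻¹) fun i y => (g i y)⁻¹ :=
  h.inv h0 (Bd.refl' c g) fun i y hy => h0 i y (c.sub i hy)
theorem SA.sq (h : c.SA w g) : c.SA (fun i y => w i y ^ 2) fun i y => g i y ^ 2 :=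
  ((h.mul h).mono (bd_eq fun _ _ _ => (pow_two _).symm)).congr fun _ _ _ => pow_two _
theorem sa_const (a : ι → ℝ) (h : c.Bd w fun i _ => a i) : c.SA w fun i _ => a i :=
  fun _ => sy_const a h
theorem sa_poly {φ : ℝ → ℝ} (hφ : ContDiff ℝ ∞ φ) : c.SA (fun _ _ => 1) fun _ y => φ y :=
  fun _ => sy_poly hφ
theorem sa_log {L : ι → ℝ → ℝ} (hs : c.Smo g) (hL : c.SA (fun _ _ => 1) L)
    (e : ∀ i, ∀ y ∈ c.J i, c.D g i y = L i y * g i y) : c.SA g g :=
  fun n => (sy_of_log hs (hL n) e).pred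
theorem sa_succ (hs : c.Smo g) (h0 : c.Bd w g) (h1 : c.SA w (c.D g)) : c.SA w g :=
  fun n => (sy_succ hs h0 (h1 n)).pred

/-- Multiplication by a symbol of weight one. -/
theorem SA.one_mul (h : c.SA (fun _ _ => 1) g) (h' : c.SA w g') :
    c.SA w fun i y => g i y * g' i y :=
  (h.mul h').mono (bd_eq fun _ _ _ => _root_.one_mul _)

/-- Multiplication by bounded constants. -/
theorem SA.cst (h : c.SA w g) (a : ι → ℝ) (ha : ∀ i, |a i| ≤ 1) :
    c.SA w fun i y => a i * g i y :=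
  (sa_const a ⟨1, zero_le_one, fun i _ _ => by simpa using ha i⟩).one_mul h

theorem SA.iter (h : c.SA w g) (k : ℕ) : c.SA w (c.D^[k] g) := by
  induction k with
  | zero => exact h
  | succ k ih =>
    rw [Function.iterate_succ_apply']
    exact ih.D

theorem SA.unif (h : c.SA (fun _ _ => 1) g) (n : ℕ) :
    ∃ M, ∀ k ≤ n, ∀ i, ∀ y ∈ c.Ω i, |c.D^[k] g i y| ≤ M := by
  have h1 : ∀ k, ∃ M, ∀ i, ∀ y ∈ c.Ω i, |c.D^[k] g i y| ≤ M := fun k => by
    obtain ⟨C, -, hC⟩ := (h.iter k).bd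
    exact ⟨C, fun i y hy => by simpa using hC i y hy⟩
  choose M hM using h1
  refine ⟨∑ k ∈ Finset.range (n + 1), |M k|, fun k hk i y hy => ?_⟩
  exact (hM k i y hy).trans ((le_abs_self _).trans (Finset.single_le_sum
    (f := fun k => |M k|) (fun _ _ => abs_nonneg _) (Finset.mem_range.2 (Nat.lt_succ_of_le hk))))

end Ctx

end Vale.Agent.P244
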