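import Vale.Agent.P244.D.Base

/-!
P244 block D: pointwise comparison of weights.  Compare cubes (`le_of_pow_le_pow_left₀`) using
`φ_cube`, `h_cube`, `rho0_cube`, `H_lo`, `H_hi`.
-/

namespace Vale.Agent.P244

open scoped ContDiff Topology
open Set Filter Real

namespace Par

variable (p : Par) {y : ℝ}

theorem wt_yH (hy : y ∈ Icc (0 : ℝ) 1) : y ≤ 2 * p.h y ^ 3 := by
  rw [p.h_cube hy]
  linarith [p.H_lo hy, pow_pos p.τ0 3]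

theorem wt_cube {a b : ℝ} (hb : 0 ≤ b) (h : a ^ 3 ≤ b ^ 3) : a ≤ b :=
  le_of_pow_le_pow_left₀ three_ne_zero hb h

theorem wt_v (hy : y ∈ Icc (0 : ℝ) 1) : (y * (1 - y)) ^ 2 ≤ y ^ 2 :=
  pow_le_pow_left₀ (St.id0_v hy) (by nlinarith [hy.1, hy.2]) 2

theorem wt_v' (h0 : 0 ≤ y) (h1 : y ≤ 1 / 4) : 9 / 16 * y ^ 2 ≤ (y * (1 - y)) ^ 2 := by
  have := pow_le_pow_left₀ (by positivity) (by nlinarith : 3 / 4 * y ≤ y * (1 - y)) 2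
  linarith

theorem h_le (hy : y ∈ Icc (0 : ℝ) 1) : p.h y ≤ 2 := by
  refine wt_cube two_pos.le ?_
  rw [p.h_cube hy]
  linarith [p.H_hi hy, hy.2, pow_le_one₀ (n := 3) p.τ0.le (by linarith [p.τ1])]

/-- `y³ ≤ y² ≤ 4 H²`. -/
theorem y_le_h2 (hy : y ∈ Icc (0 : ℝ) 1) : y ≤ 2 * p.h y ^ 2 := by
  refine wt_cube (by positivity) ?_
  have a := pow_le_pow_left₀ hy.1 (p.wt_yH hy) 2
  have b : y ^ 3 ≤ y ^ 2 := pow_le_pow_of_le_one hy.1 hy.2 (by norm_num)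
  nlinarith [sq_nonneg y]

/-- `H y³ ≤ (3/2) y⁴ + 2 τ³ y³ ≤ 8 φ⁶`; `τ³ y³ ≤ y⁴` if `τ³ ≤ y`, `≤ τ⁸` otherwise. -/
theorem hy_le (hy : y ∈ Icc (0 : ℝ) 1) : p.h y * y ≤ 2 * p.φ y ^ 2 := by
  refine wt_cube (by positivity) ?_
  have y0 := hy.1
  have t0 := p.τ0
  rw [mul_pow, p.h_cube hy, show (2 * p.φ y ^ 2) ^ 3 = 8 * (p.φ y ^ 3) ^ 2 by ring, φ_cube]
  have a := mul_le_mul_of_nonneg_right (p.H_hi hy) (pow_nonneg y0 3)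
  have b : p.τ ^ 6 ≤ p.τ ^ 4 := pow_le_pow_of_le_one t0.le (by linarith [p.τ1]) (by norm_num)
  have c : 2 * (p.τ ^ 3 * y) ≤ p.τ ^ 4 + y ^ 2 := by nlinarith [sq_nonneg (p.τ ^ 3 - y)]
  have d := mul_le_mul_of_nonneg_right c (sq_nonneg y)
  have e1 : 0 ≤ y ^ 4 := by positivity
  have e2 : 0 ≤ p.τ ^ 4 * y ^ 2 := by positivity
  have e3 : 0 ≤ p.τ ^ 8 := by positivity
  nlinarith

/-- `τ⁶ y³ ≤ 4 φ⁶ H²`: `φ⁶ ≥ y⁴` if `τ² ≤ y`, `φ⁶ ≥ τ⁸` otherwise, `4 H² ≥ y²`. -/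
theorem t2y_le (hy : y ∈ Icc (0 : ℝ) 1) : p.τ ^ 2 * y ≤ 2 * (p.φ y ^ 2 * p.h y ^ 2) := by
  refine wt_cube (by positivity) ?_
  have y0 := hy.1
  have t0 := p.τ0
  rw [show (2 * (p.φ y ^ 2 * p.h y ^ 2)) ^ 3 = 2 * ((p.φ y ^ 3) ^ 2 * (2 * p.h y ^ 3) ^ 2) by ring,
    φ_cube]
  have a := pow_le_pow_left₀ hy.1 (p.wt_yH hy) 2
  have b : p.τ ^ 2 * y * p.τ ^ 4 ≤ (y ^ 2 + p.τ ^ 4) * (y ^ 2 + p.τ ^ 4) :=
    mul_le_mul (by nlinarith [sq_nonneg (p.τ ^ 2 - y), mul_nonneg (sq_nonneg p.τ) y0])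
      (by nlinarith [sq_nonneg y]) (by positivity) (by positivity)
  have c := mul_le_mul b a (by positivity) (by positivity)
  have d : 0 ≤ p.τ ^ 6 * y ^ 3 := by positivity
  nlinarith

theorem wG_nonneg (hy : y ∈ Icc (0 : ℝ) 1) : 0 ≤ p.wG y := by
  have y0 := hy.1
  rw [wG]
  positivity

/-- `h y ≤ 2 h⁴ ≤ 2 σ²` (`y ≤ 2 H`), `h τ² y / φ² ≤ 2 τ² ≤ 2 σ²`. -/
theorem hwG_le (hy : y ∈ Icc (0 : ℝ) 1) : p.h y * p.wG y ≤ 4 * p.σ y ^ 2 := by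
  have a := mul_le_mul_of_nonneg_left (p.wt_yH hy) (p.h_pos y).le
  have b : p.h y * (p.τ ^ 2 * y / p.φ y ^ 2) ≤ 2 * p.τ ^ 2 := by
    rw [← mul_div_assoc, div_le_iff₀ (pow_pos (p.φ_pos y) 2)]
    nlinarith [mul_le_mul_of_nonneg_left (p.hy_le hy) (sq_nonneg p.τ)]
  have c : 0 ≤ p.τ * p.h y ^ 2 := mul_nonneg p.τ0.le (sq_nonneg _)
  rw [wG, σ, mul_add]
  nlinarith [sq_nonneg p.τ, sq_nonneg (p.h y ^ 2)]

theorem wG_le (hy : y ∈ Icc (0 : ℝ) 1) : p.wG y ≤ 4 * p.h y ^ 2 := by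
  have b : p.τ ^ 2 * y / p.φ y ^ 2 ≤ 2 * p.h y ^ 2 := by
    rw [div_le_iff₀ (pow_pos (p.φ_pos y) 2)]
    linarith [p.t2y_le hy]
  rw [wG]
  linarith [p.y_le_h2 hy]

/-- `φ³ = y² + τ⁴ ≤ 4 H² + τ³ ≤ 4 σ³`, `y⁴ ≤ 4 H²`, `q0_le`. -/
theorem E_abs (hy : y ∈ Icc (0 : ℝ) 1) : |p.H y - y * (1 - y)| ≤ 8 * p.σ y ^ 3 := by
  have t0 := p.τ0
  have s0 := p.σ_pos y
  have f0 := p.φ_pos y
  have a1 : p.τ ≤ p.σ y := le_add_of_nonneg_right (sq_nonneg _)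
  have a2 : y ^ 2 ≤ 4 * p.σ y ^ 3 := by
    have b1 := pow_le_pow_left₀ hy.1 (p.wt_yH hy) 2
    have b2 : p.h y ^ 2 ≤ p.σ y := le_add_of_nonneg_left t0.le
    have b3 := pow_le_pow_left₀ (sq_nonneg _) b2 3
    linarith
  have a3 : p.τ ^ 3 ≤ p.σ y ^ 3 := pow_le_pow_left₀ t0.le a1 3
  have a4 : p.φ y ^ 3 ≤ 8 * p.σ y ^ 3 := by
    have : p.τ ^ 4 ≤ p.τ ^ 3 := pow_le_pow_of_le_one t0.le (by linarith [p.τ1]) (by norm_num)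
    rw [φ_cube]
    linarith [pow_pos s0 3]
  have a5 : p.φ y ≤ 2 * p.σ y := wt_cube (by positivity) (by linarith)
  have a6 : p.τ ^ 2 * p.φ y ≤ p.σ y ^ 2 * (2 * p.σ y) :=
    mul_le_mul (pow_le_pow_left₀ t0.le a1 2) a5 f0.le (by positivity)
  have a7 : p.τ * p.φ y ^ 2 ≤ p.σ y * (2 * p.σ y) ^ 2 :=
    mul_le_mul a1 (pow_le_pow_left₀ f0.le a5 2) (by positivity) s0.le
  have a8 : y ^ 4 ≤ y ^ 2 := pow_le_pow_of_le_one hy.1 hy.2 (by norm_num)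
  have a9 := abs_le.1 (p.q0_le f0.le)
  have c1 : 0 ≤ y ^ 4 := pow_nonneg hy.1 4
  have c2 : 0 ≤ p.τ ^ 2 * p.φ y := by positivity
  have c3 : 0 ≤ p.τ * p.φ y ^ 2 := by positivity
  have c4 := pow_pos t0 3
  have c5 := pow_pos f0 3
  rw [H_eq, PP, abs_le]
  constructor <;> linarith [a9.1, a9.2]

theorem rho_le_φ (hy : y ∈ Icc (0 : ℝ) 1) : rho0 y ≤ p.φ y := by
  refine wt_cube (p.φ_pos y).le ?_
  rw [rho0_cube hy, φ_cube]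
  linarith [wt_v hy, pow_pos p.τ0 4]

theorem φ_le_rho (hy : y ∈ Icc (p.τ ^ 2) (1 / 4)) : p.φ y ≤ 2 * rho0 y := by
  have y0 : 0 ≤ y := (sq_nonneg _).trans hy.1
  have hy' : y ∈ Icc (0 : ℝ) 1 := ⟨y0, by linarith [hy.2]⟩
  refine wt_cube (mul_nonneg two_pos.le (rho0_nonneg hy')) ?_
  rw [mul_pow, rho0_cube hy', φ_cube]
  linarith [wt_v' y0 hy.2, pow_le_pow_left₀ (sq_nonneg _) hy.1 2, sq_nonneg y]

theorem wZ_nonneg (hy : y ∈ Icc (0 : ℝ) 1) : 0 ≤ p.wZ y := by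
  have y0 := hy.1
  rw [wZ]
  positivity

/-- With `v = y (1 - y)`, `ϱ³ = v²`, `ϱ ^ (-7/2) = v / ϱ⁵`: `y⁴ / ϱ³ ≤ y`, `y³ / ϱ³ ≤ 2 y`,
`τ⁴ ϱ² ≤ τ⁴ v`, `τ⁶ ≤ 2 τ⁴ v`, `y τ ≤ 2 ϱ²`. -/
theorem wZ_le (hy : y ∈ Icc (p.τ ^ 2) (1 / 4)) :
    p.wZ y / rho0 y ^ 3 ≤ 4 * (p.τ ^ 4 * rho0 y ^ (-(7 / 2) : ℝ) + y + p.τ) := by
  have t0 := p.τ0
  have y0 : 0 < y := (pow_pos t0 2).trans_le hy.1
  have hy1 : y ∈ Ioo (0 : ℝ) 1 := ⟨y0, by linarith [hy.2]⟩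
  have hy' := Ioo_subset_Icc_self hy1
  have r0 := rho0_pos hy1
  have v0 := St.id0_v' hy1
  have r3 := rho0_cube hy'
  have e : rho0 y ^ (-(7 / 2) : ℝ) = y * (1 - y) / rho0 y ^ 5 := by
    rw [eq_div_iff (pow_pos r0 5).ne', ← rpow_natCast, ← rpow_add r0, rho0, ← rpow_mul v0.le]
    norm_num
  have v2 := wt_v' y0.le hy.2
  have v3 : y * (1 - y) ≤ 1 := by nlinarith [sq_nonneg y, hy1.2]
  have v4 : 3 / 4 * y ≤ y * (1 - y) := by nlinarith [hy.2]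
  rw [e, wZ]
  generalize rho0 y = r at *
  generalize y * (1 - y) = v at *
  have a1 : r ^ 2 ≤ v := wt_cube v0.le (by
    rw [show (r ^ 2) ^ 3 = (r ^ 3) ^ 2 by ring, r3, ← pow_mul]
    exact pow_le_pow_of_le_one v0.le v3 (by norm_num))
  have a2 : y * p.τ ≤ 2 * r ^ 2 := wt_cube (by positivity) (by
    have b1 : p.τ ^ 3 ≤ y :=
      (pow_le_pow_of_le_one t0.le (by linarith [p.τ1]) (by norm_num)).trans hy.1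
    have b2 := mul_le_mul_of_nonneg_left b1 (pow_pos y0 3).le
    have b3 := pow_le_pow_left₀ (by positivity) v2 2
    rw [show (2 * r ^ 2) ^ 3 = 8 * (r ^ 3) ^ 2 by ring, r3]
    nlinarith [pow_pos y0 4])
  rw [← r3] at v2
  have c1 := mul_le_mul_of_nonneg_left v2 (by positivity : 0 ≤ y * r ^ 2)
  have c2 := mul_le_mul_of_nonneg_left hy.2 (by positivity : 0 ≤ y ^ 3 * r ^ 2)
  have c3 := mul_le_mul_of_nonneg_left a1 (by positivity : 0 ≤ p.τ ^ 4)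
  have c4 := mul_le_mul_of_nonneg_left (hy.1.trans (by linarith : y ≤ 2 * v))
    (by positivity : 0 ≤ p.τ ^ 4)
  have c5 := mul_le_mul_of_nonneg_left (mul_le_mul v2 a2 (by positivity) (by positivity)) t0.le
  have c6 : 0 ≤ p.τ ^ 4 * v := by positivity
  have c7 : 0 ≤ y * r ^ 5 := by positivity
  have c8 : 0 ≤ p.τ * r ^ 5 := by positivity
  have e1 : (y ^ 4 + (y ^ 3 + p.τ ^ 4) * (p.τ ^ 2 + r ^ 2) / r ^ 2) / r ^ 3 =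
      (y ^ 4 * r ^ 2 + (y ^ 3 + p.τ ^ 4) * (p.τ ^ 2 + r ^ 2)) / r ^ 5 := by field_simp
  have e2 : 4 * (p.τ ^ 4 * (v / r ^ 5) + y + p.τ) =
      4 * (p.τ ^ 4 * v + y * r ^ 5 + p.τ * r ^ 5) / r ^ 5 := by field_simp
  rw [e1, e2]
  exact div_le_div_of_nonneg_right (by linarith) (by positivity)

/-- At the level points: `y² ≤ 2 v² = 2 ϱ³ ≤ τ³`, so `y ≤ τ`, `y³ ≤ τ⁴`, `y⁴ ≤ τ⁶`. -/
theorem wZ_lev {η : ℝ} (η0 : 0 < η) (η1 : η ≤ 1 / 1000) (hy : y ∈ Icc (0 : ℝ) (1 / 4))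
    (h1 : η * p.τ ≤ rho0 y) (h2 : rho0 y ≤ 2 * η * p.τ) : p.wZ y ≤ 5 * p.τ ^ 4 / η ^ 2 := by
  have t0 := p.τ0
  have t1 : p.τ ≤ 1 := by linarith [p.τ1]
  have r0 : 0 < rho0 y := (mul_pos η0 t0).trans_le h1
  have a1 : y ^ 2 ≤ p.τ ^ 3 := by
    have b1 := wt_v' hy.1 hy.2
    rw [← rho0_cube ⟨hy.1, by linarith [hy.2]⟩] at b1
    have b2 : rho0 y ≤ 1 / 2 * p.τ := h2.trans (mul_le_mul_of_nonneg_right (by linarith) t0.le)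
    linarith [pow_le_pow_left₀ r0.le b2 3, pow_pos t0 3]
  have a2 : y ≤ p.τ := le_of_pow_le_pow_left₀ two_ne_zero t0.le
    (a1.trans (pow_le_pow_of_le_one t0.le t1 (by norm_num)))
  have a3 : y ^ 2 * y ≤ p.τ ^ 3 * p.τ := mul_le_mul a1 a2 hy.1 (by positivity)
  have a4 : y ^ 4 ≤ p.τ ^ 4 := pow_le_pow_left₀ hy.1 a2 4
  have a5 : η ^ 2 ≤ 1 := pow_le_one₀ η0.le (by linarith)
  have a6 : p.τ ^ 4 ≤ p.τ ^ 4 / η ^ 2 := le_div_self (by positivity) (by positivity) a5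
  have a7 : (p.τ ^ 2 + rho0 y ^ 2) / rho0 y ^ 2 ≤ 2 / η ^ 2 := by
    rw [div_le_div_iff₀ (by positivity) (by positivity)]
    linarith [pow_le_pow_left₀ (by positivity) h1 2, mul_le_mul_of_nonneg_left a5 (sq_nonneg (rho0 y))]
  have a8 := mul_le_mul (by linarith : y ^ 3 + p.τ ^ 4 ≤ 2 * p.τ ^ 4) a7 (by positivity)
    (by positivity)
  rw [wZ, mul_div_assoc, mul_div_assoc]
  rw [show 2 * p.τ ^ 4 * (2 / η ^ 2) = 4 * (p.τ ^ 4 / η ^ 2) by ring] at a8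
  linarith

/-- `y² ≥ v² = ϱ³ ≥ η³ τ³ ≥ τ⁴`. -/
theorem lev_lo {η : ℝ} (η0 : 0 < η) (hτ : p.τ ≤ η ^ 3) (hy : y ∈ Icc (0 : ℝ) 1)
    (h1 : η * p.τ ≤ rho0 y) : p.τ ^ 2 ≤ y := by
  have t0 := p.τ0
  refine le_of_pow_le_pow_left₀ two_ne_zero hy.1 ?_
  have a := pow_le_pow_left₀ (by positivity) h1 3
  rw [rho0_cube hy] at a
  linarith [wt_v hy, mul_le_mul_of_nonneg_right hτ (pow_pos t0 3).le]

end Par

end Vale.Agent.P244
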