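import Vale.Agent.P244.D.SA
import Vale.Agent.P244.D.Form
import Vale.Agent.P244.D.Wt

/-!
P244 block D: symbol estimates for the basic functions, in any context with `cf = m y`.
-/

namespace Vale.Agent.P244

open scoped ContDiff Topology
open Set Filter Real

/-- Contexts with `cf y = m y * y`. -/
def Nice (c : Ctx Par) : Prop := ∃ m : ℝ → ℝ, ContDiff ℝ ∞ m ∧ ∀ y, c.cf y = m y * y

theorem Par.δc_le (p : Par) (j : Fin 3) : |p.δ * p.c j| ≤ 1 := by
  rw [abs_mul, abs_of_pos p.δ0]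
  nlinarith [p.δ0, p.δ1, p.cube j, abs_nonneg (p.c j)]

namespace Nice

open Ctx

variable {c : Ctx Par} (hc : Nice c)
include hc

theorem sa_y : c.SA (fun _ y => y) fun _ y => y := by
  obtain ⟨m, hm, e⟩ := hc
  refine sa_log (fun _ _ _ => contDiffWithinAt_id) (sa_poly hm) fun i y hy => ?_
  rw [D_eq hy (hasDerivAt_id y), e, mul_one]

theorem sa_φ : c.SA (fun p y => p.φ y) fun p y => p.φ y := by
  have h1 : c.SA (fun p y => y ^ 2 + p.τ ^ 4) fun _ y => y ^ 2 :=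
    hc.sa_y.sq.mono (bd_le 1 zero_le_one fun p y _ =>
      ⟨sq_nonneg y, by nlinarith [pow_pos p.τ0 4]⟩)
  have h2 : c.SA (fun p y => y ^ 2 + p.τ ^ 4) fun p y => y ^ 2 + p.τ ^ 4 :=
    h1.add (sa_const _ (bd_le 1 zero_le_one fun p y _ =>
      ⟨(pow_pos p.τ0 4).le, by nlinarith [sq_nonneg y]⟩))
  have h3 := (h1.mul (h2.inv' fun p y _ => (p.p_pos y).ne')).mono (w' := fun _ _ => 1)
    (bd_eq fun p y _ => mul_inv_cancel₀ (p.p_pos y).ne')
  obtain ⟨m, hm, e⟩ := hc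
  refine sa_log (fun p y _ => p.φ_smooth.contDiffAt.contDiffWithinAt)
    (((sa_poly hm).one_mul h3).cmul (2 / 3)) fun p y hy => ?_
  have := (p.φ_pos y).ne'
  rw [D_eq hy (p.φ_deriv y), e, ← p.φ_cube]
  field_simp

omit hc in
theorem sa_τ1 : c.SA (fun p y => p.τ + p.φ y) fun p _ => p.τ :=
  sa_const _ (bd_le 1 zero_le_one fun p y _ => ⟨p.τ0.le, by linarith [p.φ_pos y]⟩)

theorem sa_φ1 : c.SA (fun p y => p.τ + p.φ y) fun p y => p.φ y :=
  hc.sa_φ.mono (bd_le 1 zero_le_one fun p y _ => ⟨(p.φ_pos y).le, by linarith [p.τ0]⟩)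

theorem sa_H : c.SA (fun p y => p.H y) fun p y => p.H y := by
  have a := sa_τ1 (c := c)
  have b := hc.sa_φ1
  have h1 : c.SA (fun p y => p.H y) fun p y => (1 - y + y ^ 3) * y :=
    ((sa_poly (φ := fun y => 1 - y + y ^ 3) (by fun_prop)).one_mul hc.sa_y).mono
      (bd_le 2 zero_le_two fun p y hy => ⟨(memΩ hy).1, by
        linarith [p.H_lo (memΩ hy), pow_pos p.τ0 3]⟩)
  have h2 := (((((((a.mul a).mul a).sub (((a.mul a).mul b).cmul (27 / 40))).add
    (((a.mul b).mul b).cmul (243 / 2240))).sub (((b.mul b).mul b).cmul (81 / 17920))).add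
    ((((a.mul a).mul a).cst _ fun p => p.δc_le 0).cmul 2)).add
    (((a.mul a).mul b).cst _ fun p => p.δc_le 1)).add
    ((((a.mul b).mul b).cst _ fun p => p.δc_le 2).cmul (1 / 10))
  refine (h1.add (h2.mono (bd_le 10 (by norm_num) fun p y hy => ⟨?_, ?_⟩))).congr
    fun p y _ => ?_
  · have := p.τ0
    have := p.φ_pos y
    positivity
  · have m := memΩ hy
    nlinarith [p.H_lo m, p.φ3_le m, p.t2φ_le m, p.tφ2_le m, pow_pos p.τ0 3, m.1]
  · simp only [Par.H_eq, PP, Par.q0]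
    ring

theorem sa_Q : c.SA (fun p y => (p.τ + p.φ y) * (p.τ + p.φ y)) fun p y => p.Q y := by
  have a := sa_τ1 (c := c)
  have b := hc.sa_φ1
  refine ((((((a.mul a).cmul (-(27 / 40))).add ((a.mul b).cmul (243 / 1120))).sub
    ((b.mul b).cmul (243 / 17920))).add ((a.mul a).cst _ fun p => p.δc_le 1)).add
    (((a.mul b).cst _ fun p => p.δc_le 2).cmul (1 / 5))).congr fun p y _ => ?_
  simp only [Par.Q, PP1, Par.q1]
  ring

theorem sa_yG : c.SA (fun p y => p.wG y) fun _ y => y :=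
  hc.sa_y.mono (bd_le 1 zero_le_one fun p y hy => ⟨(memΩ hy).1, by
    have := (memΩ hy).1
    have : 0 ≤ p.τ ^ 2 * y / p.φ y ^ 2 := by positivity
    rw [Par.wG]
    linarith⟩)

theorem sa_G : c.SA (fun p y => p.wG y) fun p y => p.G y := by
  have h1 : c.SA (fun p y => p.wG y) fun _ y => y ^ 2 * y :=
    (sa_poly (φ := fun y => y ^ 2) (by fun_prop)).one_mul hc.sa_yG
  have h2 := hc.sa_Q.mul (hc.sa_y.mul (hc.sa_φ.sq.inv' fun p y _ => (pow_pos (p.φ_pos y) 2).ne'))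
  refine ((h1.cmul 4).add ((h2.mono (bd_le 2 zero_le_two fun p y hy => ⟨?_, ?_⟩)).cmul
    (2 / 3))).congr fun p y _ => ?_
  · have := p.τ0
    have := p.φ_pos y
    have := (memΩ hy).1
    positivity
  · have f0 := p.φ_pos y
    have e : p.wG y = (p.τ ^ 2 + p.φ y ^ 2) * (y * (p.φ y ^ 2)⁻¹) := by
      rw [Par.wG]
      field_simp
      ring
    have := (memΩ hy).1
    rw [e, ← mul_assoc 2]
    exact mul_le_mul_of_nonneg_right (by nlinarith [sq_nonneg (p.τ - p.φ y)]) (by positivity)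
  · simp only [Par.G]
    ring

theorem sa_L : c.SA (fun _ _ => 1) fun p y => c.D (fun p y => p.H y) p y * (p.H y)⁻¹ :=
  (hc.sa_H.D.mul (hc.sa_H.inv' fun p _ hy => (p.H_pos (memJ hy)).ne')).mono
    (bd_eq fun p _ hy => mul_inv_cancel₀ (p.H_pos (memΩ hy)).ne')

theorem sa_Dβ : c.SA (fun _ _ => 1) (c.D fun p => p.S.β 0) :=
  (hc.sa_L.cmul (1 / 3)).congr fun p y hy => by
    simp only [D_eq (g := fun p => p.S.β 0) hy (p.β_deriv (memJ hy)),
      D_eq (g := fun p y => p.H y) hy (p.H_deriv y)]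
    ring

theorem sa_DA : c.SA (fun _ _ => 1) (c.D fun p => p.S.A 0) :=
  (hc.sa_L.cmul (-(1 / 6))).congr fun p y hy => by
    simp only [D_eq (g := fun p => p.S.A 0) hy (p.A_deriv (memJ hy)),
      D_eq (g := fun p y => p.H y) hy (p.H_deriv y)]
    ring

theorem sa_h : c.SA (fun p y => p.h y) fun p y => p.h y := by
  refine sa_log (fun p y hy => ?_) hc.sa_Dβ fun p y hy => ?_
  · exact (contDiffWithinAt_const.mul
      (p.H_smooth.contDiffAt.contDiffWithinAt.log (p.H_pos (memJ hy)).ne')).exp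
  · rw [D_eq (g := fun p y => p.h y) hy (p.β_deriv (memJ hy)).exp,
      D_eq (g := fun p => p.S.β 0) hy (p.β_deriv (memJ hy))]
    simp only [Par.h, Par.S_β]
    ring

theorem sa_σ : c.SA (fun p y => p.σ y) fun p y => p.σ y :=
  (sa_const _ (bd_le 1 zero_le_one fun p y _ =>
    ⟨p.τ0.le, by rw [Par.σ]; nlinarith [sq_nonneg (p.h y)]⟩)).add
    (hc.sa_h.sq.mono (bd_le 1 zero_le_one fun p y _ =>
      ⟨sq_nonneg _, by rw [Par.σ]; linarith [p.τ0]⟩))

end Nice

end Vale.Agent.P244
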